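import Vale.Agent.Lib.Wobble.Main

/-!
# P192: finitely presented periodic groups of bounded-displacement permutations are finite

A finitely presented group acting on `ℤ` by permutations of bounded displacement either acts through
a finite quotient or has a finite-index subgroup with a nontrivial homomorphism to `ℤ`.  Hence a
finitely presented periodic group has only finite images in the wobbling group `W(ℤ)`, and a
finitely presented periodic group acting faithfully with line-like orbits is finite.
-/

namespace Vale.Agent.Results.P192.WobblingBurnside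

open Function Vale.Agent.Lib.Wobble

/-- `σ` moves every integer by at most a fixed amount: `σ` lies in the wobbling group `W(ℤ)`. -/
def BoundedDisp (σ : Equiv.Perm ℤ) : Prop := ∃ C : ℤ, ∀ m : ℤ, |σ m - m| ≤ C

lemma finite_range_of_trivial {G H : Type*} [Group G] [Group H] (ρ : G →* H) (K : Subgroup G)
    [K.Normal] [K.FiniteIndex] (h : ∀ g ∈ K, ρ g = 1) : (Set.range ρ).Finite := by
  have hsub : Set.range ρ ⊆ Set.range (QuotientGroup.lift K ρ h) := by
    rintro _ ⟨g, rfl⟩
    exact ⟨(g : G ⧸ K), rfl⟩
  exact (Set.finite_range _).subset hsub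

lemma alternatives {G : Type*} [Group G] [Group.IsFinitelyPresented G] (ρ : G →* Equiv.Perm ℤ)
    (hρ : ∀ g, BoundedDisp (ρ g)) :
    (Set.range ρ).Finite ∨
    (∃ (N : ℕ) (π : G →* Equiv.Perm ℤ), 0 < N ∧ (∀ g, IsPer N (π g)) ∧
        ∃ (g : G) (x₀ c : ℤ), c ≠ 0 ∧ π g x₀ = x₀ + c * N) := by
  let _ : MulAction G ℤ := MulAction.compHom ℤ ρ
  have hsmul : ∀ (g : G) (m : ℤ), g • m = ρ g m := fun _ _ => rfl
  rcases main_action (G := G) (X := ℤ) (fun m => m) (fun x a _ b _ h => h)
    (fun g => hρ g) with ⟨K, hK1, hK2, hK3⟩ | h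
  · left
    refine finite_range_of_trivial ρ K (fun g hg => ?_)
    ext m
    exact hK3 g hg m
  · exact Or.inr h

universe u v

/-- **Main result.**
(1) A finitely presented group acting on `ℤ` by bounded-displacement permutations acts through a
finite group, or has a finite-index subgroup with a nontrivial homomorphism to `ℤ`.
(2) Every homomorphism from a finitely presented periodic group to the wobbling group `W(ℤ)` has
finite image.
(3) Every finitely presented periodic subgroup of `W(ℤ)` is finite.
(4) A finitely presented periodic group acting faithfully on a set whose orbits are laid out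
injectively on `ℤ`, every group element having bounded displacement, is finite. -/
theorem result :
    (∀ (G : Type u) [Group G] [Group.IsFinitelyPresented G] (ρ : G →* Equiv.Perm ℤ),
      (∀ g, BoundedDisp (ρ g)) →
      (Set.range ρ).Finite ∨
        ∃ K : Subgroup G, K.FiniteIndex ∧ ∃ χ : K →* Multiplicative ℤ, χ ≠ 1) ∧
    (∀ (G : Type u) [Group G] [Group.IsFinitelyPresented G], (∀ g : G, IsOfFinOrder g) →
      ∀ ρ : G →* Equiv.Perm ℤ, (∀ g, BoundedDisp (ρ g)) → (Set.range ρ).Finite) ∧
    (∀ (G : Type u) [Group G] [Group.IsFinitelyPresented G], (∀ g : G, IsOfFinOrder g) →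
      ∀ ρ : G →* Equiv.Perm ℤ, Injective ρ → (∀ g, BoundedDisp (ρ g)) → Finite G) ∧
    (∀ (G : Type u) (X : Type v) [Group G] [Group.IsFinitelyPresented G] [MulAction G X]
      [FaithfulSMul G X], (∀ g : G, IsOfFinOrder g) → ∀ pos : X → ℤ,
      (∀ x : X, Set.InjOn pos (MulAction.orbit G x)) →
      (∀ g : G, ∃ C : ℤ, ∀ x : X, |pos (g • x) - pos x| ≤ C) → Finite G) := by
  have h2 : ∀ (G : Type u) [Group G] [Group.IsFinitelyPresented G], (∀ g : G, IsOfFinOrder g) →
      ∀ ρ : G →* Equiv.Perm ℤ, (∀ g, BoundedDisp (ρ g)) → (Set.range ρ).Finite := by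
    intro G _ _ hper ρ hρ
    rcases alternatives ρ hρ with h | ⟨N, π, hN, hπ, g, x₀, c, hc, hw⟩
    · exact h
    · exact absurd (hper g) (not_isOfFinOrder_of_winding hN π hπ g x₀ c hc hw)
  refine ⟨?_, h2, ?_, ?_⟩
  · intro G _ _ ρ hρ
    rcases alternatives ρ hρ with h | ⟨N, π, hN, hπ, g, x₀, c, hc, hw⟩
    · exact Or.inl h
    · exact Or.inr (indicable_of_winding hN π hπ g x₀ c hc hw)
  · intro G _ _ hper ρ hinj hρ
    have : Finite (Set.range ρ) := (h2 G hper ρ hρ).to_subtype
    exact Finite.of_injective_finite_range hinj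
  · intro G X _ _ _ _ hper pos hinj hb
    rcases main_action pos hinj hb with ⟨K, hK1, hK2, hK3⟩ | ⟨N, π, hN, hπ, g, x₀, c, hc, hw⟩
    · apply Finite.of_injective (QuotientGroup.mk : G → G ⧸ K)
      intro a b hab
      have h1 : a⁻¹ * b ∈ K := QuotientGroup.eq.mp hab
      have h3 : a⁻¹ * b = 1 := by
        apply FaithfulSMul.eq_of_smul_eq_smul (α := X)
        intro x
        rw [hK3 _ h1 x, one_smul]
      exact (inv_mul_eq_one.mp h3)
    · exact absurd (hper g) (not_isOfFinOrder_of_winding hN π hπ g x₀ c hc hw)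

end Vale.Agent.Results.P192.WobblingBurnside
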