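import Vale.Agent.Results.P192.TwoGenReduction
import Vale.Agent.Results.P192.WobblingBurnside

/-!
# P192: the two partial results on the finitely presented Burnside problem, in one statement

(A) The problem reduces to two-generator groups.
(B) Finitely presented periodic groups of bounded-displacement permutations of `ℤ` (more generally,
acting faithfully with line-like orbits) are finite; finitely presented groups acting on `ℤ` with
bounded displacement and infinite image are virtually indicable.
-/

namespace Vale.Agent.Results.P192.A_Combined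

open Function
open Vale.Agent.Results.P192.WobblingBurnside (BoundedDisp)

universe u v

theorem result :
    ((∀ (G : Type u) [Group G], Group.IsFinitelyPresented G → (∀ g : G, IsOfFinOrder g) →
        Finite G) ↔
    (∀ (H : Type u) [Group H], Group.IsFinitelyPresented H → (∀ h : H, IsOfFinOrder h) →
        (∃ a b : H, Subgroup.closure {a, b} = ⊤) → Finite H)) ∧
    (∀ (G : Type u) [Group G] [Group.IsFinitelyPresented G] (ρ : G →* Equiv.Perm ℤ),
      (∀ g, BoundedDisp (ρ g)) →
      (Set.range ρ).Finite ∨
        ∃ K : Subgroup G, K.FiniteIndex ∧ ∃ χ : K →* Multiplicative ℤ, χ ≠ 1) ∧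
    (∀ (G : Type u) [Group G] [Group.IsFinitelyPresented G], (∀ g : G, IsOfFinOrder g) →
      ∀ ρ : G →* Equiv.Perm ℤ, (∀ g, BoundedDisp (ρ g)) → (Set.range ρ).Finite) ∧
    (∀ (G : Type u) [Group G] [Group.IsFinitelyPresented G], (∀ g : G, IsOfFinOrder g) →
      ∀ ρ : G →* Equiv.Perm ℤ, Injective ρ → (∀ g, BoundedDisp (ρ g)) → Finite G) ∧
    (∀ (G : Type u) (X : Type v) [Group G] [Group.IsFinitelyPresented G] [MulAction G X]
      [FaithfulSMul G X], (∀ g : G, IsOfFinOrder g) → ∀ pos : X → ℤ,
      (∀ x : X, Set.InjOn pos (MulAction.orbit G x)) →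
      (∀ g : G, ∃ C : ℤ, ∀ x : X, |pos (g • x) - pos x| ≤ C) → Finite G) :=
  ⟨Vale.Agent.Results.P192.TwoGenReduction.result.{u},
    Vale.Agent.Results.P192.WobblingBurnside.result.{u, v}⟩

end Vale.Agent.Results.P192.A_Combined
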