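import Mathlib
import Vale.Agent.Lib.P192.TwoGen

/-!
# P192: the finitely presented Burnside problem reduces to two-generator groups

Every periodic group with an ordinary finite presentation is finite if and only if every
periodic group with an ordinary finite presentation which can be generated by two elements
is finite.

Proof idea: for an infinite finitely presented periodic group `G` generated by `g_0, ..., g_(d-1)`
take the wreath product `W` of `G` with `Sym(Z / 2^(d+1))`, the element `a` of the base group with
`g_i` at position `2^i`, and the translation `t`.  Since the powers of two form a Sidon set,
commutators of translates of `a` are concentrated in one coordinate, hence the subgroup generated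
by `a` and `t` contains the full power of the commutator subgroup of `G`, and so has finite index
in `W`.  `W` is finitely presented, and so are its subgroups of finite index.
-/

namespace Vale.Agent.Results.P192.TwoGenReduction

universe u

theorem result :
    (∀ (G : Type u) [Group G], Group.IsFinitelyPresented G → (∀ g : G, IsOfFinOrder g) →
        Finite G) ↔
    (∀ (H : Type u) [Group H], Group.IsFinitelyPresented H → (∀ h : H, IsOfFinOrder h) →
        (∃ a b : H, Subgroup.closure {a, b} = ⊤) → Finite H) := by
  constructor
  · intro h H _ hfp htor _
    exact h H hfp htor
  · intro h G _ hfp htor
    by_contra hinf
    rw [not_finite_iff_infinite] at hinf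
    obtain ⟨H, _, hHfp, hHtor, hHinf, hgen⟩ := Vale.Agent.Lib.P192.exists_twoGenerated G htor
    have := h H hHfp hHtor hgen
    exact not_finite H

end Vale.Agent.Results.P192.TwoGenReduction
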